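import Mathlib

namespace Vale.Agent.Results.P345.BooleanCombinations

/-- `S ⊆ ℕ^n` has a single-fold Diophantine representation: an integer polynomial `p` in the
parameters and `m` auxiliary variables with `a ∈ S ↔ ∃ w, p (a, w) = 0` and at most one such `w`
for every `a`. -/
def SingleFold {n : ℕ} (S : Set (Fin n → ℕ)) : Prop :=
  ∃ (m : ℕ) (p : Poly (Fin n ⊕ Fin m)),
    (∀ a, a ∈ S ↔ ∃ w : Fin m → ℕ, p (Sum.elim a w) = 0) ∧
      ∀ a, {w : Fin m → ℕ | p (Sum.elim a w) = 0}.Subsingleton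

/-- `S ⊆ ℕ^n` has a finite-fold Diophantine representation. -/
def FiniteFold {n : ℕ} (S : Set (Fin n → ℕ)) : Prop :=
  ∃ (m : ℕ) (p : Poly (Fin n ⊕ Fin m)),
    (∀ a, a ∈ S ↔ ∃ w : Fin m → ℕ, p (Sum.elim a w) = 0) ∧
      ∀ a, {w : Fin m → ℕ | p (Sum.elim a w) = 0}.Finite

/-- both `S` and its complement have single-fold Diophantine representations -/
def BiSingleFold {n : ℕ} (S : Set (Fin n → ℕ)) : Prop :=
  SingleFold S ∧ SingleFold Sᶜ

private lemma elim_comp_map {n : ℕ} {β γ : Type} (a : Fin n → ℕ) (w : γ → ℕ) (e : β → γ) :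
    (Sum.elim a w) ∘ (Sum.map id e) = Sum.elim a (w ∘ e) := by
  funext x
  rcases x with x | x <;> rfl

private lemma singleFold_of {n : ℕ} {β : Type} [Finite β] {S : Set (Fin n → ℕ)}
    (p : Poly (Fin n ⊕ β)) (h1 : ∀ a, a ∈ S ↔ ∃ w : β → ℕ, p (Sum.elim a w) = 0)
    (h2 : ∀ a (w w' : β → ℕ), p (Sum.elim a w) = 0 → p (Sum.elim a w') = 0 → w = w') :
    SingleFold S := by
  obtain ⟨m, ⟨e⟩⟩ := Finite.exists_equiv_fin β
  refine ⟨m, p.map (Sum.map id e), ?_, ?_⟩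
  · intro a
    rw [h1 a]
    constructor
    · rintro ⟨w, hw⟩
      refine ⟨w ∘ e.symm, ?_⟩
      rw [Poly.map_apply, elim_comp_map]
      have : (w ∘ e.symm) ∘ e = w := by funext x; simp
      rw [this]; exact hw
    · rintro ⟨w, hw⟩
      rw [Poly.map_apply, elim_comp_map] at hw
      exact ⟨_, hw⟩
  · intro a w hw w' hw'
    simp only [Set.mem_ofPred_eq, Poly.map_apply, elim_comp_map] at hw hw'
    have := h2 a _ _ hw hw'
    funext x
    have h3 := congrFun this (e.symm x)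
    simpa using h3

private lemma finiteFold_of {n : ℕ} {β : Type} [Finite β] {S : Set (Fin n → ℕ)}
    (p : Poly (Fin n ⊕ β)) (h1 : ∀ a, a ∈ S ↔ ∃ w : β → ℕ, p (Sum.elim a w) = 0)
    (h2 : ∀ a, {w : β → ℕ | p (Sum.elim a w) = 0}.Finite) :
    FiniteFold S := by
  obtain ⟨m, ⟨e⟩⟩ := Finite.exists_equiv_fin β
  refine ⟨m, p.map (Sum.map id e), ?_, ?_⟩
  · intro a
    rw [h1 a]
    constructor
    · rintro ⟨w, hw⟩
      refine ⟨w ∘ e.symm, ?_⟩
      rw [Poly.map_apply, elim_comp_map]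
      have : (w ∘ e.symm) ∘ e = w := by funext x; simp
      rw [this]; exact hw
    · rintro ⟨w, hw⟩
      rw [Poly.map_apply, elim_comp_map] at hw
      exact ⟨_, hw⟩
  · intro a
    have hinj : Function.Injective (fun w : Fin m → ℕ => w ∘ e) := by
      intro w w' h
      funext x
      have h3 := congrFun h (e.symm x)
      simpa using h3
    have := (h2 a).preimage (hinj.injOn (s := _))
    refine this.subset ?_
    intro w hw
    simp only [Set.mem_ofPred_eq, Poly.map_apply, elim_comp_map] at hw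
    exact hw

/-- a polynomial that vanishes exactly when all the variables `g i` vanish -/
private lemma exists_pin {α γ : Type} [Finite γ] (g : γ → α) :
    ∃ Z : Poly α, ∀ v : α → ℕ, 0 ≤ Z v ∧ (Z v = 0 ↔ ∀ i, v (g i) = 0) := by
  classical
  have := Fintype.ofFinite γ
  refine ⟨Poly.sumsq ((Finset.univ : Finset γ).toList.map (fun i => Poly.proj (g i))), ?_⟩
  intro v
  refine ⟨Poly.sumsq_nonneg _ _, ?_⟩
  rw [Poly.sumsq_eq_zero, List.forall_iff_forall_mem]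
  constructor
  · intro h i
    have := h (Poly.proj (g i)) (List.mem_map.mpr ⟨i, by simp, rfl⟩)
    simpa using this
  · intro h q hq
    obtain ⟨i, -, rfl⟩ := List.mem_map.mp hq
    simp [h i]

private lemma elim_comp_inl {n : ℕ} {β : Type} (a : Fin n → ℕ) (w : β → ℕ) :
    (Sum.elim a w) ∘ (Sum.inl : Fin n → Fin n ⊕ β) = a := rfl

/-- the polynomial `p(a,x)^2 + q(a,y)^2` -/
private lemma inter_poly {n : ℕ} {β γ : Type} (p : Poly (Fin n ⊕ β)) (q : Poly (Fin n ⊕ γ)) :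
    ∃ P : Poly (Fin n ⊕ (β ⊕ γ)), ∀ a (w : β ⊕ γ → ℕ), P (Sum.elim a w) = 0 ↔
      p (Sum.elim a (w ∘ Sum.inl)) = 0 ∧ q (Sum.elim a (w ∘ Sum.inr)) = 0 := by
  refine ⟨p.map (Sum.map id Sum.inl) * p.map (Sum.map id Sum.inl) +
    q.map (Sum.map id Sum.inr) * q.map (Sum.map id Sum.inr), ?_⟩
  intro a w
  simp only [Poly.add_apply, Poly.mul_apply, Poly.map_apply, elim_comp_map]
  exact mul_self_add_mul_self_eq_zero

/-- the polynomial `(p(a,x)^2 + |y|^2) (q(a,y)^2 + |x|^2)` -/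
private lemma union_poly {n : ℕ} {β γ : Type} [Finite β] [Finite γ] (p : Poly (Fin n ⊕ β))
    (q : Poly (Fin n ⊕ γ)) :
    ∃ P : Poly (Fin n ⊕ (β ⊕ γ)), ∀ a (w : β ⊕ γ → ℕ), P (Sum.elim a w) = 0 ↔
      (p (Sum.elim a (w ∘ Sum.inl)) = 0 ∧ w ∘ Sum.inr = 0) ∨
        (q (Sum.elim a (w ∘ Sum.inr)) = 0 ∧ w ∘ Sum.inl = 0) := by
  obtain ⟨Z1, hZ1⟩ := exists_pin (α := Fin n ⊕ (β ⊕ γ)) (fun i : β => Sum.inr (Sum.inl i))
  obtain ⟨Z2, hZ2⟩ := exists_pin (α := Fin n ⊕ (β ⊕ γ)) (fun j : γ => Sum.inr (Sum.inr j))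
  refine ⟨(p.map (Sum.map id Sum.inl) * p.map (Sum.map id Sum.inl) + Z2) *
    (q.map (Sum.map id Sum.inr) * q.map (Sum.map id Sum.inr) + Z1), ?_⟩
  intro a w
  simp only [Poly.add_apply, Poly.mul_apply, Poly.map_apply, elim_comp_map, mul_eq_zero]
  have e1 : ∀ t : ℤ, t * t + Z2 (Sum.elim a w) = 0 ↔ t = 0 ∧ w ∘ Sum.inr = 0 := by
    intro t
    rw [add_eq_zero_iff_of_nonneg (mul_self_nonneg t) (hZ2 _).1, mul_self_eq_zero, (hZ2 _).2]
    refine and_congr Iff.rfl ⟨fun h => funext fun j => h j, fun h j => congrFun h j⟩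
  have e2 : ∀ t : ℤ, t * t + Z1 (Sum.elim a w) = 0 ↔ t = 0 ∧ w ∘ Sum.inl = 0 := by
    intro t
    rw [add_eq_zero_iff_of_nonneg (mul_self_nonneg t) (hZ1 _).1, mul_self_eq_zero, (hZ1 _).2]
    refine and_congr Iff.rfl ⟨fun h => funext fun j => h j, fun h j => congrFun h j⟩
  rw [e1, e2]

private lemma sum_ext {β γ : Type} {w w' : β ⊕ γ → ℕ} (h1 : w ∘ Sum.inl = w' ∘ Sum.inl)
    (h2 : w ∘ Sum.inr = w' ∘ Sum.inr) : w = w' := by
  funext x
  rcases x with x | x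
  · exact congrFun h1 x
  · exact congrFun h2 x

private lemma SingleFold.inter {n : ℕ} {S T : Set (Fin n → ℕ)} (hS : SingleFold S)
    (hT : SingleFold T) : SingleFold (S ∩ T) := by
  obtain ⟨m1, p, hp1, hp2⟩ := hS
  obtain ⟨m2, q, hq1, hq2⟩ := hT
  obtain ⟨P, hP⟩ := inter_poly p q
  refine singleFold_of P ?_ ?_
  · intro a
    constructor
    · rintro ⟨ha, hb⟩
      obtain ⟨x, hx⟩ := (hp1 a).mp ha
      obtain ⟨y, hy⟩ := (hq1 a).mp hb
      exact ⟨Sum.elim x y, (hP a _).mpr ⟨hx, hy⟩⟩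
    · rintro ⟨w, hw⟩
      obtain ⟨h1, h2⟩ := (hP a w).mp hw
      exact ⟨(hp1 a).mpr ⟨_, h1⟩, (hq1 a).mpr ⟨_, h2⟩⟩
  · intro a w w' hw hw'
    obtain ⟨h1, h2⟩ := (hP a w).mp hw
    obtain ⟨h1', h2'⟩ := (hP a w').mp hw'
    exact sum_ext (hp2 a h1 h1') (hq2 a h2 h2')

private lemma SingleFold.disjUnion {n : ℕ} {S T : Set (Fin n → ℕ)} (hS : SingleFold S)
    (hT : SingleFold T) (hd : Disjoint S T) : SingleFold (S ∪ T) := by
  obtain ⟨m1, p, hp1, hp2⟩ := hS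
  obtain ⟨m2, q, hq1, hq2⟩ := hT
  obtain ⟨P, hP⟩ := union_poly p q
  refine singleFold_of P ?_ ?_
  · intro a
    constructor
    · rintro (ha | hb)
      · obtain ⟨x, hx⟩ := (hp1 a).mp ha
        exact ⟨Sum.elim x 0, (hP a _).mpr (Or.inl ⟨hx, rfl⟩)⟩
      · obtain ⟨y, hy⟩ := (hq1 a).mp hb
        exact ⟨Sum.elim 0 y, (hP a _).mpr (Or.inr ⟨hy, rfl⟩)⟩
    · rintro ⟨w, hw⟩
      rcases (hP a w).mp hw with ⟨h1, -⟩ | ⟨h1, -⟩
      · exact Or.inl ((hp1 a).mpr ⟨_, h1⟩)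
      · exact Or.inr ((hq1 a).mpr ⟨_, h1⟩)
  · intro a w w' hw hw'
    rcases (hP a w).mp hw with ⟨h1, h2⟩ | ⟨h1, h2⟩ <;>
      rcases (hP a w').mp hw' with ⟨h1', h2'⟩ | ⟨h1', h2'⟩
    · exact sum_ext (hp2 a h1 h1') (h2.trans h2'.symm)
    · exact absurd ((hq1 a).mpr ⟨_, h1'⟩) (Set.disjoint_left.mp hd ((hp1 a).mpr ⟨_, h1⟩))
    · exact absurd ((hq1 a).mpr ⟨_, h1⟩) (Set.disjoint_left.mp hd ((hp1 a).mpr ⟨_, h1'⟩))
    · exact sum_ext (h2.trans h2'.symm) (hq2 a h1 h1')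

private lemma FiniteFold.inter {n : ℕ} {S T : Set (Fin n → ℕ)} (hS : FiniteFold S)
    (hT : FiniteFold T) : FiniteFold (S ∩ T) := by
  obtain ⟨m1, p, hp1, hp2⟩ := hS
  obtain ⟨m2, q, hq1, hq2⟩ := hT
  obtain ⟨P, hP⟩ := inter_poly p q
  refine finiteFold_of P ?_ ?_
  · intro a
    constructor
    · rintro ⟨ha, hb⟩
      obtain ⟨x, hx⟩ := (hp1 a).mp ha
      obtain ⟨y, hy⟩ := (hq1 a).mp hb
      exact ⟨Sum.elim x y, (hP a _).mpr ⟨hx, hy⟩⟩
    · rintro ⟨w, hw⟩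
      obtain ⟨h1, h2⟩ := (hP a w).mp hw
      exact ⟨(hp1 a).mpr ⟨_, h1⟩, (hq1 a).mpr ⟨_, h2⟩⟩
  · intro a
    refine ((hp2 a).image2 (fun x y => Sum.elim x y) (hq2 a)).subset ?_
    intro w hw
    obtain ⟨h1, h2⟩ := (hP a w).mp hw
    exact ⟨_, h1, _, h2, sum_ext rfl rfl⟩

private lemma FiniteFold.union {n : ℕ} {S T : Set (Fin n → ℕ)} (hS : FiniteFold S)
    (hT : FiniteFold T) : FiniteFold (S ∪ T) := by
  obtain ⟨m1, p, hp1, hp2⟩ := hS
  obtain ⟨m2, q, hq1, hq2⟩ := hT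
  obtain ⟨P, hP⟩ := union_poly p q
  refine finiteFold_of P ?_ ?_
  · intro a
    constructor
    · rintro (ha | hb)
      · obtain ⟨x, hx⟩ := (hp1 a).mp ha
        exact ⟨Sum.elim x 0, (hP a _).mpr (Or.inl ⟨hx, rfl⟩)⟩
      · obtain ⟨y, hy⟩ := (hq1 a).mp hb
        exact ⟨Sum.elim 0 y, (hP a _).mpr (Or.inr ⟨hy, rfl⟩)⟩
    · rintro ⟨w, hw⟩
      rcases (hP a w).mp hw with ⟨h1, -⟩ | ⟨h1, -⟩
      · exact Or.inl ((hp1 a).mpr ⟨_, h1⟩)
      · exact Or.inr ((hq1 a).mpr ⟨_, h1⟩)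
  · intro a
    refine (((hp2 a).image (fun x => Sum.elim x (0 : Fin m2 → ℕ))).union
      ((hq2 a).image (fun y => Sum.elim (0 : Fin m1 → ℕ) y))).subset ?_
    intro w hw
    rcases (hP a w).mp hw with ⟨h1, h2⟩ | ⟨h1, h2⟩
    · exact Or.inl ⟨_, h1, sum_ext rfl h2.symm⟩
    · exact Or.inr ⟨_, h1, sum_ext h2.symm rfl⟩

private lemma SingleFold.finiteFold {n : ℕ} {S : Set (Fin n → ℕ)} (hS : SingleFold S) :
    FiniteFold S := by
  obtain ⟨m, p, h1, h2⟩ := hS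
  exact ⟨m, p, h1, fun a => (h2 a).finite⟩

/-- `{a | 0 ≤ r a}`: the equation `r(a) = w`. -/
private lemma singleFold_nonneg {n : ℕ} (r : Poly (Fin n)) : SingleFold {a | 0 ≤ r a} := by
  refine singleFold_of (β := Unit) (r.map Sum.inl - Poly.proj (Sum.inr ())) ?_ ?_
  · intro a
    simp only [Set.mem_ofPred_eq, Poly.sub_apply, Poly.map_apply, elim_comp_inl, Poly.proj_apply,
      Sum.elim_inr]
    constructor
    · intro h
      exact ⟨fun _ => (r a).toNat, by rw [Int.toNat_of_nonneg h]; ring⟩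
    · rintro ⟨w, hw⟩
      have : r a = (w () : ℤ) := by linarith
      rw [this]; positivity
  · intro a w w' hw hw'
    simp only [Poly.sub_apply, Poly.map_apply, elim_comp_inl, Poly.proj_apply,
      Sum.elim_inr] at hw hw'
    funext x
    have : (w () : ℤ) = w' () := by linarith
    exact_mod_cast this

private lemma biSingleFold_nonneg {n : ℕ} (r : Poly (Fin n)) : BiSingleFold {a | 0 ≤ r a} := by
  refine ⟨singleFold_nonneg r, ?_⟩
  have h := singleFold_nonneg (-r - 1)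
  have e : {a : Fin n → ℕ | 0 ≤ r a}ᶜ = {a | 0 ≤ (-r - 1 : Poly (Fin n)) a} := by
    ext a
    simp only [Set.mem_compl_iff, Set.mem_ofPred_eq, Poly.sub_apply, Poly.neg_apply,
      Poly.one_apply]
    omega
  rw [e]; exact h

private lemma BiSingleFold.compl {n : ℕ} {S : Set (Fin n → ℕ)} (h : BiSingleFold S) :
    BiSingleFold Sᶜ := ⟨h.2, by rw [compl_compl]; exact h.1⟩

private lemma BiSingleFold.inter {n : ℕ} {S T : Set (Fin n → ℕ)} (hS : BiSingleFold S)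
    (hT : BiSingleFold T) : BiSingleFold (S ∩ T) := by
  refine ⟨hS.1.inter hT.1, ?_⟩
  have e : (S ∩ T)ᶜ = Sᶜ ∪ (S ∩ Tᶜ) := by
    ext a
    by_cases h1 : a ∈ S <;> by_cases h2 : a ∈ T <;> simp [h1, h2]
  rw [e]
  refine hS.2.disjUnion (hS.1.inter hT.2) ?_
  rw [Set.disjoint_left]
  intro a h1 h2
  exact h1 h2.1

private lemma BiSingleFold.union {n : ℕ} {S T : Set (Fin n → ℕ)} (hS : BiSingleFold S)
    (hT : BiSingleFold T) : BiSingleFold (S ∪ T) := by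
  have := (hS.compl.inter hT.compl).compl
  rwa [Set.compl_inter, compl_compl, compl_compl] at this

/-- (1) the sets `{a : 0 ≤ r(a)}` and `{a : r(a) = 0}`, `r` an integer polynomial, and their
complements have single-fold representations; (2) the sets that have, together with their
complements, single-fold representations form a Boolean algebra; (3) single-fold representable
sets are closed under intersections and disjoint unions; (4) finite-fold representable sets are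
closed under intersections and arbitrary finite unions and contain the single-fold ones. -/
theorem result :
    (∀ (n : ℕ) (r : Poly (Fin n)), BiSingleFold {a | 0 ≤ r a} ∧ BiSingleFold {a | r a = 0}) ∧
    (∀ (n : ℕ) (S T : Set (Fin n → ℕ)), BiSingleFold S → BiSingleFold T →
      BiSingleFold Sᶜ ∧ BiSingleFold (S ∩ T) ∧ BiSingleFold (S ∪ T)) ∧
    (∀ (n : ℕ) (S T : Set (Fin n → ℕ)), SingleFold S → SingleFold T →
      SingleFold (S ∩ T) ∧ (Disjoint S T → SingleFold (S ∪ T))) ∧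
    (∀ (n : ℕ) (S T : Set (Fin n → ℕ)), FiniteFold S → FiniteFold T →
      FiniteFold (S ∩ T) ∧ FiniteFold (S ∪ T)) ∧
    (∀ (n : ℕ) (S : Set (Fin n → ℕ)), SingleFold S → FiniteFold S) := by
  refine ⟨fun n r => ⟨biSingleFold_nonneg r, ?_⟩, fun n S T hS hT =>
    ⟨hS.compl, hS.inter hT, hS.union hT⟩, fun n S T hS hT => ⟨hS.inter hT, hS.disjUnion hT⟩,
    fun n S T hS hT => ⟨hS.inter hT, hS.union hT⟩, fun n S hS => hS.finiteFold⟩
  have e : {a : Fin n → ℕ | r a = 0} = {a | 0 ≤ r a} ∩ {a | 0 ≤ (-r : Poly (Fin n)) a} := by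
    ext a
    simp only [Set.mem_ofPred_eq, Set.mem_inter_iff, Poly.neg_apply]
    omega
  rw [e]
  exact (biSingleFold_nonneg r).inter (biSingleFold_nonneg (-r))

end Vale.Agent.Results.P345.BooleanCombinations
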